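import Vale.Agent.P340.Main

namespace Vale.Agent.Results.P340.Dependent

open Vale.Agent.P340

universe v

theorem result {S : Type v} (P : PTS S) (u u' : S) (hu : P.ax u u')
    (h₁ : ∀ s, P.rule u s s)
    (h₂ : ∀ s₁ s₂ s₃, P.rule s₁ s₂ s₃ → ∃ s, P.rule s₁ s₂ s ∧ P.rule s₁ s s₃)
    (h₃ : ∀ s₁ s₂ s₃, P.rule s₁ s₂ s₃ →
      ∃ a b c d, P.rule s₁ u a ∧ P.rule a u b ∧ P.ax b c ∧ P.rule c u d) :
    WeakNorm P → StrongNorm P :=
  main hu h₁ h₂ h₃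

end Vale.Agent.Results.P340.Dependent
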